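import Vale.Agent.P184.Reduce
import Vale.Agent.P184.An.Main

namespace Vale.Agent.Results.P184.Bass

universe u

theorem result (G : Type u) [Group G] (q : ℕ) (e : Matrix (Fin q) (Fin q) (G → ℂ))
    (hs : ∀ i j, Summable fun g => ‖e i j g‖)
    (he : ∀ i j g, ∑ k, ∑' h, e i k h * e k j (h⁻¹ * g) = e i j g) :
    ∃ F : Finset (ConjClasses G), (∀ C ∈ F, ∀ g ∈ C.carrier, IsOfFinOrder g) ∧
      ∀ C ∉ F, HasSum (fun g : C.carrier => ∑ i, e i i g) 0 :=
  Vale.Agent.P184.bass (fun _ _ l => Vale.Agent.P184.anCore l) e hs he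

end Vale.Agent.Results.P184.Bass
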